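import Mathlib

namespace Vale.Agent.P245.H413

open Finset

theorem sq_sum_ge {n : ℕ} (x : Fin n → ℝ) (hx : ∀ i, 0 ≤ x i) :
    ∑ i, x i ^ 2 ≤ (∑ i, x i) ^ 2 := by
  have h : ∀ i ∈ (univ : Finset (Fin n)), x i ^ 2 ≤ x i * ∑ j, x j := by
    intro i _
    have h1 : x i ≤ ∑ j, x j := single_le_sum (fun j _ => hx j) (mem_univ i)
    nlinarith [hx i]
  calc ∑ i, x i ^ 2 ≤ ∑ i, x i * ∑ j, x j := sum_le_sum h
    _ = (∑ i, x i) ^ 2 := by rw [← sum_mul]; ring

/-- The choice of the weights for all scales `k` at once. -/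
theorem num2 {n : ℕ} (hn : 0 < n) (I : Fin n → ℝ) (hI : ∀ i, 0 ≤ I i) (S N : ℝ)
    (hS : S = ∑ i, I i) (hS0 : 0 < S) (hN : N = (∑ i, √(I i)) ^ 2 / S) :
    1 ≤ N ∧ ∃ t : Fin n → ℝ, (∀ i, 0 < t i) ∧ (∀ i, t i ≤ 1) ∧
      ∑ i, I i / t i ≤ 2 * S ∧ ∑ i, t i ≤ 1 + N := by
  have hN1 : 1 ≤ N := by
    rw [hN, le_div_iff₀ hS0, one_mul]
    have h := sq_sum_ge (fun i => √(I i)) (fun i => Real.sqrt_nonneg _)
    have h2 : ∑ i, √(I i) ^ 2 = ∑ i, I i := sum_congr rfl (fun i _ => Real.sq_sqrt (hI i))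
    linarith [h, h2, hS]
  refine ⟨hN1, ?_⟩
  have hN0 : 0 < N := by linarith
  have hn0 : (0 : ℝ) < n := by exact_mod_cast hn
  set E : ℝ := √N with hE
  have hE0 : 0 < E := Real.sqrt_pos.2 hN0
  have hEE : E * E = N := Real.mul_self_sqrt hN0.le
  set r : Fin n → ℝ := fun i => √(I i) / √S with hr
  have hsS : 0 < √S := Real.sqrt_pos.2 hS0
  have hr0 : ∀ i, 0 ≤ r i := fun i => div_nonneg (Real.sqrt_nonneg _) hsS.le
  have hrI : ∀ i, I i = S * (r i * r i) := by
    intro i
    simp only [hr]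
    field_simp
    rw [Real.sq_sqrt (hI i), Real.sq_sqrt hS0.le]
    ring
  have hrsum : ∑ i, r i = E := by
    simp only [hr]
    rw [← sum_div, hE, hN, Real.sqrt_div (sq_nonneg _),
      Real.sqrt_sq (sum_nonneg (fun i _ => Real.sqrt_nonneg _))]
  set t : Fin n → ℝ := fun i => min 1 (r i * E + 1 / n) with ht
  have ht0 : ∀ i, 0 < t i := by
    intro i
    have : 0 < r i * E + 1 / (n : ℝ) := by
      have := mul_nonneg (hr0 i) hE0.le
      positivity
    exact lt_min one_pos this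
  have ht1 : ∀ i, t i ≤ 1 := fun i => min_le_left _ _
  have hIt : ∀ i, I i / t i ≤ I i + S * (r i / E) := by
    intro i
    have hpos : 0 ≤ S * (r i / E) := mul_nonneg hS0.le (div_nonneg (hr0 i) hE0.le)
    rcases min_choice (1 : ℝ) (r i * E + 1 / n) with h | h
    · have : t i = 1 := h
      rw [this, div_one]; linarith
    · have h' : t i = r i * E + 1 / n := h
      rcases (hr0 i).eq_or_lt with h0 | h0
      · have hIi : I i = 0 := by rw [hrI i, ← h0]; ring
        rw [hIi, zero_div]; linarith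
      · have hle : r i * E ≤ t i := by
          rw [h']; have : (0 : ℝ) < 1 / n := by positivity
          linarith
        have h3 : I i / t i ≤ I i / (r i * E) :=
          div_le_div_of_nonneg_left (hI i) (mul_pos h0 hE0) hle
        have h4 : I i / (r i * E) = S * (r i / E) := by
          rw [hrI i]; field_simp
        linarith [hI i]
  refine ⟨t, ht0, ht1, ?_, ?_⟩
  · calc ∑ i, I i / t i ≤ ∑ i, (I i + S * (r i / E)) := sum_le_sum (fun i _ => hIt i)
      _ = S + S * (E / E) := by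
        rw [sum_add_distrib, ← hS, ← mul_sum, ← sum_div, hrsum]
      _ = 2 * S := by rw [div_self hE0.ne']; ring
  · calc ∑ i, t i ≤ ∑ i, (r i * E + 1 / (n : ℝ)) := sum_le_sum (fun i _ => min_le_right _ _)
      _ = E * E + 1 := by
        rw [sum_add_distrib, ← sum_mul, hrsum]
        simp only [sum_const, card_univ, Fintype.card_fin, nsmul_eq_mul]
        field_simp
      _ = 1 + N := by rw [hEE]; ring

end Vale.Agent.P245.H413
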