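import Vale.Agent.P245.H413.Num2

namespace Vale.Agent.P245.H413

open Finset Filter Topology

/-- From the inequality with arbitrary weights `t` to the effective rank, all scales `k`. -/
theorem all_k {n : ℕ} (hn : 0 < n) (I : Fin n → ℝ) (hI : ∀ i, 0 ≤ I i) (E F c : ℝ)
    (hc : 0 ≤ c) (hF : 0 ≤ F)
    (h : ∀ t : Fin n → ℝ, (∀ i, 0 < t i) → (∀ i, t i ≤ 1) → ∀ k : ℝ, 1 ≤ k →
      E ≤ c * k * ∑ i, I i / t i + (1 + ∑ i, t i) * Real.exp (-k) * F) :
    ∀ k : ℝ, 1 ≤ k →
      E ≤ 6 * c * k * ∑ i, I i + (∑ i, √(I i)) ^ 2 / (∑ i, I i) * Real.exp (-k) * F := by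
  intro k hk
  rcases (sum_nonneg (fun i (_ : i ∈ (univ : Finset (Fin n))) => hI i)).eq_or_lt with h0 | hS0
  · -- all `I i = 0`
    have hz : ∀ i, I i = 0 := by
      intro i
      exact (sum_eq_zero_iff_of_nonneg (fun i _ => hI i)).1 h0.symm i (mem_univ i)
    have hb : ∀ m : ℝ, 1 ≤ m → E ≤ (1 + n) * Real.exp (-m) * F := by
      intro m hm
      have := h (fun _ => 1) (fun _ => one_pos) (fun _ => le_rfl) m hm
      simpa [hz] using this
    have hlim : Tendsto (fun m : ℝ => (1 + (n : ℝ)) * Real.exp (-m) * F) atTop (𝓝 0) := by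
      have h1 : Tendsto (fun m : ℝ => Real.exp (-m)) atTop (𝓝 0) :=
        Real.tendsto_exp_neg_atTop_nhds_zero
      have h2 := (h1.const_mul (1 + (n : ℝ))).mul_const F
      simpa using h2
    have hE : E ≤ 0 := ge_of_tendsto hlim ((eventually_ge_atTop 1).mono hb)
    rw [← h0]
    simpa using hE
  · obtain ⟨hN1, t, ht0, ht1, hs1, hs2⟩ := num2 hn I hI _ _ rfl hS0 rfl
    set S := ∑ i, I i with hS
    set N := (∑ i, √(I i)) ^ 2 / S with hN
    have hm := h t ht0 ht1 (k + 2) (by linarith)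
    have e1 : c * (k + 2) * ∑ i, I i / t i ≤ 6 * c * k * S := by
      have h1 : c * (k + 2) * ∑ i, I i / t i ≤ c * (k + 2) * (2 * S) :=
        mul_le_mul_of_nonneg_left hs1 (by positivity)
      have h2 : c * (k + 2) * (2 * S) ≤ 6 * c * k * S := by
        have : 0 ≤ c * S := by positivity
        nlinarith
      linarith
    have hexp : Real.exp (-(k + 2)) = Real.exp (-k) * Real.exp (-2) := by
      rw [← Real.exp_add]; congr 1; ring
    have h2e : Real.exp (-2) ≤ 1 / 3 := by
      rw [Real.exp_neg, inv_eq_one_div]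
      apply one_div_le_one_div_of_le (by norm_num)
      have := Real.add_one_le_exp (2 : ℝ)
      linarith
    have e2 : (1 + ∑ i, t i) * Real.exp (-(k + 2)) * F ≤ N * Real.exp (-k) * F := by
      apply mul_le_mul_of_nonneg_right _ hF
      rw [hexp]
      have hk0 : 0 < Real.exp (-k) := Real.exp_pos _
      have h20 : 0 < Real.exp (-2) := Real.exp_pos _
      have hX : (1 + ∑ i, t i) * Real.exp (-2) ≤ N := by
        have : (1 + ∑ i, t i) ≤ 3 * N := by linarith
        have h3 : (1 + ∑ i, t i) * Real.exp (-2) ≤ (3 * N) * Real.exp (-2) :=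
          mul_le_mul_of_nonneg_right this h20.le
        nlinarith
      calc (1 + ∑ i, t i) * (Real.exp (-k) * Real.exp (-2))
          = ((1 + ∑ i, t i) * Real.exp (-2)) * Real.exp (-k) := by ring
        _ ≤ N * Real.exp (-k) := mul_le_mul_of_nonneg_right hX hk0.le
    linarith

end Vale.Agent.P245.H413
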